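import Vale.Agent.P329.Bdl.K_Bdl_K_Known
import Mathlib.GroupTheory.PGroup
import Mathlib.GroupTheory.QuotientGroup.Basic
import Mathlib.GroupTheory.Nilpotent
import Mathlib.LinearAlgebra.Span.Basic
import Mathlib.Algebra.Polynomial.AlgebraMap
import Mathlib.Algebra.CharP.Lemmas

/-!
# P329 : the algebra end (odd p and p = 2)

Functions on a finite `p`-group are linear combinations of iterated sums (augmentation ideal), so
the languages of finite `p`-groups and of finite nilpotent groups are Boolean combinations of the
level sets of the iterated sums `chW`.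
-/

namespace Vale.Agent.P329.H320

open Polynomial

variable {p : ℕ} {α : Type}

/-- sum over the nonempty suffixes `x :: X` (prefixes of the word, newest letter first) of
`k (x :: X) * F X` -/
def TW (k F : List α → ZMod p) : List α → ZMod p
  | [] => 0
  | x :: X => TW k F X + k (x :: X) * F X

/-- iterated sums -/
def chW : List (List α → ZMod p) → List α → ZMod p
  | [] => fun _ => 1
  | k :: ks => TW k (chW ks)

/-- `k` depends only on the last `c` letters -/
def LocC (c : ℕ) (k : List α → ZMod p) : Prop := ∀ X Y : List α, X.take c = Y.take c → k X = k Y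

theorem TW_add (k F G : List α → ZMod p) : TW k (F + G) = TW k F + TW k G := by
  funext X
  induction X with
  | nil => simp [TW]
  | cons x X ih =>
    rw [TW, ih]
    simp only [Pi.add_apply, TW]
    ring

theorem TW_smul (k F : List α → ZMod p) (c : ZMod p) : TW k (c • F) = c • TW k F := by
  funext X
  induction X with
  | nil => simp [TW]
  | cons x X ih =>
    rw [TW, ih]
    simp only [Pi.smul_apply, smul_eq_mul, TW]
    ring

theorem TW_zero (k : List α → ZMod p) : TW k 0 = 0 := by
  have := TW_smul k 0 0
  rwa [zero_smul, zero_smul] at this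

/-- the span of the iterated sums with weights of memory `c` -/
def Sp (p : ℕ) (α : Type) (c : ℕ) : Submodule (ZMod p) (List α → ZMod p) :=
  Submodule.span (ZMod p) {F | ∃ ks : List (List α → ZMod p), (∀ k ∈ ks, LocC c k) ∧ F = chW ks}

theorem TW_mem {c : ℕ} {k F : List α → ZMod p} (hk : LocC c k) (hF : F ∈ Sp p α c) :
    TW k F ∈ Sp p α c := by
  induction hF using Submodule.span_induction with
  | mem F hF =>
    obtain ⟨ks, hks, rfl⟩ := hF
    refine Submodule.subset_span ⟨k :: ks, ?_, rfl⟩
    intro k' hk'
    rcases List.mem_cons.1 hk' with rfl | h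
    · exact hk
    · exact hks _ h
  | zero => rw [TW_zero]; exact Submodule.zero_mem _
  | add F G _ _ h1 h2 => rw [TW_add]; exact Submodule.add_mem _ h1 h2
  | smul c F _ h1 => rw [TW_smul]; exact Submodule.smul_mem _ _ h1

theorem one_mem {c : ℕ} (a : ZMod p) : (fun _ => a : List α → ZMod p) ∈ Sp p α c := by
  have h1 : (chW [] : List α → ZMod p) ∈ Sp p α c :=
    Submodule.subset_span ⟨[], by simp, rfl⟩
  have h2 := Submodule.smul_mem _ a h1
  refine Eq.mp (congrArg (· ∈ Sp p α c) ?_) h2
  funext X
  simp [chW]

theorem Sp_known [Fact p.Prime] {c : ℕ}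
    (hch : ∀ ks : List (List α → ZMod p), (∀ k ∈ ks, LocC c k) →
      Kn fun w : List α => chW ks w.reverse) {F : List α → ZMod p} (hF : F ∈ Sp p α c) :
    Kn fun w : List α => F w.reverse := by
  have : NeZero p := ⟨(Fact.out : p.Prime).ne_zero⟩
  induction hF using Submodule.span_induction with
  | mem F hF =>
    obtain ⟨ks, hks, rfl⟩ := hF
    exact hch ks hks
  | zero => exact Kn.const 0
  | add F G _ _ h1 h2 => exact h1.comp₂ h2 fun x y => x + y
  | smul c F _ h1 => exact h1.comp fun x => c * x

/-! ### the filtration by the augmentation ideal -/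

section fil

variable {G : Type} [Group G]

/-- The filtration of the functions on `G` by the augmentation ideal. -/
def Fil : ℕ → (G → ZMod p) → Prop
  | 0, v => v = fun _ => 0
  | k + 1, v => ∀ g : G, Fil k fun x => v (x * g) - v x

theorem Fil.comp {H : Type} [Group H] (q : G →* H) :
    ∀ (k : ℕ) (w : H → ZMod p), Fil k w → Fil k fun x : G => w (q x) := by
  intro k
  induction k with
  | zero =>
    intro w hw
    rw [Fil] at hw
    subst hw
    rfl
  | succ k ih =>
    intro w hw g
    have := ih _ (hw (q g))
    refine Eq.mp (congrArg (Fil k) ?_) this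
    funext x
    simp [map_mul]

theorem Fil.central {z : G} (hz : ∀ g : G, g * z = z * g) {k' : ℕ}
    (h : ∀ v : G → ZMod p, (∀ x, v (x * z) = v x) → Fil k' v) :
    ∀ (N : ℕ) (v : G → ZMod p), Fil N (fun x => v (x * z) - v x) → Fil (N + k') v := by
  intro N
  induction N with
  | zero =>
    intro v hv
    rw [Fil] at hv
    rw [Nat.zero_add]
    apply h
    intro x
    have h1 := congrFun hv x
    exact sub_eq_zero.1 h1
  | succ N ih =>
    intro v hv
    rw [Nat.succ_add]
    intro g
    apply ih
    refine Eq.mp (congrArg (Fil N) ?_) (hv g)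
    funext x
    change v (x * g * z) - v (x * g) - (v (x * z) - v x) =
      v (x * z * g) - v (x * z) - (v (x * g) - v x)
    rw [mul_assoc x g z, hz g, ← mul_assoc]
    ring

/-- right translation by `z` -/
def Zr (p : ℕ) (z : G) : Module.End (ZMod p) (G → ZMod p) :=
  LinearMap.funLeft (ZMod p) (ZMod p) fun x : G => x * z

theorem Zr_apply (z : G) (v : G → ZMod p) (x : G) : Zr p z v x = v (x * z) := rfl

theorem Zr_pow (z : G) (n : ℕ) (v : G → ZMod p) (x : G) : (Zr p z ^ n) v x = v (x * z ^ n) := by
  induction n generalizing x with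
  | zero => simp
  | succ n ih =>
    rw [pow_succ', Module.End.mul_apply, Zr_apply, ih, mul_assoc, ← pow_succ']

theorem Zr_nil [Fact p.Prime] {z : G} (hz : z ^ p = 1) : (Zr p z - 1) ^ p = 0 := by
  have h1 : ((X : (ZMod p)[X]) - 1) ^ p = X ^ p - 1 := by
    rw [sub_pow_char, one_pow]
  have h2 := congrArg (aeval (Zr p z)) h1
  rw [map_pow, map_sub, map_sub, map_pow, aeval_X, map_one] at h2
  rw [h2, sub_eq_zero]
  refine LinearMap.ext fun v => ?_
  funext x
  rw [Zr_pow, hz, mul_one]
  rfl

theorem Fil.all_of [Fact p.Prime] {z : G} (hz : ∀ g : G, g * z = z * g) (hzp : z ^ p = 1) {k' : ℕ}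
    (h : ∀ v : G → ZMod p, (∀ x, v (x * z) = v x) → Fil k' v) (v : G → ZMod p) :
    Fil (p * k') v := by
  have key : ∀ n ≤ p, Fil (n * k') (((Zr p z - 1) ^ (p - n)) v) := by
    intro n
    induction n with
    | zero =>
      intro _
      rw [Nat.zero_mul, Nat.sub_zero, Zr_nil hzp]
      rfl
    | succ n ih =>
      intro hn
      rw [Nat.succ_mul]
      apply Fil.central hz h
      have h1 := ih (by omega)
      refine Eq.mp (congrArg (Fil (n * k')) ?_) h1
      funext x
      have h2 : p - n = (p - (n + 1)) + 1 := by omega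
      rw [h2, pow_succ', Module.End.mul_apply, LinearMap.sub_apply, Pi.sub_apply, Zr_apply,
        Module.End.one_apply]
  have := key p le_rfl
  rwa [Nat.sub_self, pow_zero, Module.End.one_apply] at this

/-- Nilpotency of the augmentation ideal of a finite `p`-group. -/
theorem fil_all [Fact p.Prime] : ∀ (n : ℕ) (G : Type) [Group G] [Finite G], Nat.card G = n →
    IsPGroup p G → ∃ k, ∀ v : G → ZMod p, Fil k v := by
  intro n
  induction n using Nat.strong_induction_on with
  | _ n ih =>
    intro G _ _ hn hG
    have hp : p.Prime := Fact.out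
    rcases subsingleton_or_nontrivial G with hs | hnt
    · refine ⟨1, fun v g => ?_⟩
      funext x
      rw [Subsingleton.elim (x * g) x]
      exact sub_self _
    · have hc : Nontrivial (Subgroup.center G) := hG.center_nontrivial
      have hcp : IsPGroup p (Subgroup.center G) := hG.to_subgroup _
      have hdvd : p ∣ Nat.card (Subgroup.center G) := by
        obtain ⟨m, hm⟩ := IsPGroup.iff_card.mp hcp
        have h1 : 1 < Nat.card (Subgroup.center G) := Finite.one_lt_card
        rw [hm] at h1 ⊢
        rcases Nat.eq_zero_or_pos m with rfl | hm0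
        · simp at h1
        · exact dvd_pow_self p (by omega)
      obtain ⟨⟨z, hzc⟩, hz⟩ := exists_prime_orderOf_dvd_card' p hdvd
      have hzcomm : ∀ g : G, g * z = z * g := fun g => Subgroup.mem_center_iff.mp hzc g
      have hzp : z ^ p = 1 := by
        have h1 := pow_orderOf_eq_one (⟨z, hzc⟩ : Subgroup.center G)
        rw [hz] at h1
        exact congrArg Subtype.val h1
      have hz1 : z ≠ 1 := by
        intro h
        have h1 : (⟨z, hzc⟩ : Subgroup.center G) = 1 := Subtype.ext h
        rw [h1, orderOf_one] at hz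
        exact hp.one_lt.ne hz
      let H : Subgroup G := Subgroup.zpowers z
      have hHc : ∀ h ∈ H, ∀ g : G, g * h = h * g := by
        intro h hh g
        obtain ⟨m, rfl⟩ := hh
        have : Commute g z := hzcomm g
        exact this.zpow_right m
      have hN : H.Normal := by
        constructor
        intro h hh g
        rw [hHc h hh g, mul_assoc, mul_inv_cancel, mul_one]
        exact hh
      have hlt : Nat.card (G ⧸ H) < n := by
        have h1 := Subgroup.card_eq_card_quotient_mul_card_subgroup H
        have h2 : 1 < Nat.card H := by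
          have : Nontrivial H := ⟨⟨⟨z, Subgroup.mem_zpowers z⟩, 1, fun h =>
            hz1 (congrArg Subtype.val h)⟩⟩
          exact Finite.one_lt_card
        have h3 : 0 < Nat.card (G ⧸ H) := Nat.card_pos
        rw [← hn, h1]
        nlinarith
      obtain ⟨k', hk'⟩ := ih _ hlt (G ⧸ H) rfl (hG.to_quotient H)
      have hinv : ∀ v : G → ZMod p, (∀ x, v (x * z) = v x) → Fil k' v := by
        intro v hv
        have hvi : ∀ x, v (x * z⁻¹) = v x := by
          intro x
          have := hv (x * z⁻¹)
          rw [inv_mul_cancel_right] at this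
          exact this.symm
        have hvz : ∀ (m : ℤ) (x : G), v (x * z ^ m) = v x := by
          intro m
          induction m using Int.induction_on with
          | zero => intro x; rw [zpow_zero, mul_one]
          | succ i ih => intro x; rw [zpow_add_one, ← mul_assoc, hv, ih]
          | pred i ih => intro x; rw [zpow_sub_one, ← mul_assoc, hvi, ih]
        have h1 := Fil.comp (QuotientGroup.mk' H) k'
          (fun q => v (Quotient.out q)) (hk' _)
        refine Eq.mp (congrArg (Fil k') ?_) h1
        funext x
        change v (Quotient.out (QuotientGroup.mk x : G ⧸ H)) = v x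
        obtain ⟨⟨h, hh⟩, he⟩ := QuotientGroup.mk_out_eq_mul H x
        rw [he]
        obtain ⟨m, rfl⟩ := hh
        exact hvz m x
      exact ⟨p * k', fun v => Fil.all_of hzcomm hzp hinv v⟩

end fil

/-! ### products along a word -/

section prod

variable {G : Type} [Group G]

/-- product along the history (newest letter first), the factor of a letter may depend on the
letters before it -/
def hprod (ψ : List α → α → G) : List α → G
  | [] => 1
  | x :: X => hprod ψ X * ψ X x

theorem fil_sp [Finite G] {c : ℕ} {ψ : List α → α → G}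
    (hψ : ∀ X Y x, X.take c = Y.take c → ψ X x = ψ Y x) : ∀ (k : ℕ) (v : G → ZMod p), Fil k v →
    (fun X => v (hprod ψ X)) ∈ Sp p α (c + 1) := by
  classical
  have := Fintype.ofFinite G
  intro k
  induction k with
  | zero =>
    intro v hv
    rw [Fil] at hv
    subst hv
    exact one_mem 0
  | succ k ih =>
    intro v hv
    let wt : G → List α → ZMod p := fun g X => match X with
      | [] => 0
      | x :: X => if ψ X x = g then 1 else 0
    have hwt : ∀ g, LocC (c + 1) (wt g) := by
      intro g X Y hXY
      cases X with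
      | nil =>
        cases Y with
        | nil => rfl
        | cons y Y => simp at hXY
      | cons x X =>
        cases Y with
        | nil => simp at hXY
        | cons y Y =>
          rw [List.take_succ_cons, List.take_succ_cons, List.cons.injEq] at hXY
          obtain ⟨rfl, h⟩ := hXY
          change (if ψ X x = g then (1 : ZMod p) else 0) = if ψ Y x = g then 1 else 0
          rw [hψ X Y x h]
    have h1 : (fun _ => v 1) + ∑ g : G, TW (wt g) (fun X => v (hprod ψ X * g) - v (hprod ψ X)) ∈
        Sp p α (c + 1) :=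
      Submodule.add_mem _ (one_mem _) (Submodule.sum_mem _ fun g _ => TW_mem (hwt g) (ih _ (hv g)))
    refine Eq.mp (congrArg (· ∈ Sp p α (c + 1)) ?_) h1
    funext X
    rw [Pi.add_apply, Finset.sum_apply]
    induction X with
    | nil => simp [TW, hprod]
    | cons x X ihX =>
      simp only [TW]
      rw [Finset.sum_add_distrib, ← add_assoc, ihX]
      have h2 : ∀ g : G, wt g (x :: X) * (v (hprod ψ X * g) - v (hprod ψ X)) =
          if ψ X x = g then v (hprod ψ X * g) - v (hprod ψ X) else 0 := by
        intro g
        change (if ψ X x = g then (1 : ZMod p) else 0) * _ = _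
        split_ifs <;> simp
      rw [Finset.sum_congr rfl fun g _ => h2 g, Finset.sum_ite_eq, if_pos (Finset.mem_univ _)]
      change v (hprod ψ X) + (v (hprod ψ X * ψ X x) - v (hprod ψ X)) = v (hprod ψ X * ψ X x)
      ring

/-- **Products with finite memory in a finite `p`-group.** -/
theorem pgroup_hprod [Fact p.Prime] [Finite G] (hG : IsPGroup p G) {c : ℕ} {ψ : List α → α → G}
    (hψ : ∀ X Y x, X.take c = Y.take c → ψ X x = ψ Y x)
    (hch : ∀ ks : List (List α → ZMod p), (∀ k ∈ ks, LocC (c + 1) k) →
      Kn fun w : List α => chW ks w.reverse) :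
    Kn fun w : List α => hprod ψ w.reverse := by
  classical
  obtain ⟨k, hk⟩ := fil_all (p := p) _ G rfl hG
  intro g
  have h1 := Sp_known hch (fil_sp hψ k (fun x => if x = g then 1 else 0) (hk _)) 1
  refine Eq.mp (congrArg (SH 1) ?_) h1
  ext w
  change (if hprod ψ w.reverse = g then (1 : ZMod p) else 0) = 1 ↔ hprod ψ w.reverse = g
  have hp : p.Prime := Fact.out
  have : Fact (1 < p) := ⟨hp.one_lt⟩
  by_cases h : hprod ψ w.reverse = g
  · rw [if_pos h]; exact ⟨fun _ => h, fun _ => rfl⟩
  · rw [if_neg h]
    exact ⟨fun h' => absurd h' zero_ne_one, fun h' => absurd h' h⟩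

theorem hprod_letters (f : α → G) (w : List α) :
    hprod (fun _ x => f x) w.reverse = (w.map f).prod := by
  induction w using List.reverseRecOn with
  | nil => rfl
  | append_singleton w x ih =>
    rw [List.reverse_append, List.map_append, List.prod_append, ← ih]
    simp [hprod]

/-- **`p`-groups** -/
theorem pgroup_known [Fact p.Prime] [Finite G] (hG : IsPGroup p G)
    (hch : ∀ ks : List (List α → ZMod p), (∀ k ∈ ks, LocC 1 k) →
      Kn fun w : List α => chW ks w.reverse) (f : α → G) :
    Kn fun w : List α => (w.map f).prod := by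
  have h1 := pgroup_hprod hG (c := 0) (ψ := fun _ x => f x) (fun _ _ _ _ => rfl) hch
  intro g
  refine Eq.mp (congrArg (SH 1) ?_) (h1 g)
  ext w
  change hprod (fun _ x => f x) w.reverse = g ↔ (w.map f).prod = g
  rw [hprod_letters]

end prod

/-! ### nilpotent groups -/

section nil

variable {G : Type} [Group G]

theorem hprod_comp {H : Type} [Group H] (e : G →* H) (ψ : List α → α → G) (X : List α) :
    e (hprod ψ X) = hprod (fun X x => e (ψ X x)) X := by
  induction X with
  | nil => exact map_one e
  | cons x X ih => rw [hprod, map_mul, ih]; rfl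

theorem hprod_pi {ι : Type} {H : ι → Type} [∀ i, Group (H i)] (ψ : List α → α → ∀ i, H i)
    (X : List α) : hprod ψ X = fun i => hprod (fun X x => ψ X x i) X := by
  induction X with
  | nil => rfl
  | cons x X ih => rw [hprod, ih]; rfl

/-- products with memory `c` are known in the group `G` -/
def HK (α : Type) (c : ℕ) (G : Type) [Group G] : Prop :=
  ∀ ψ : List α → α → G, (∀ X Y x, X.take c = Y.take c → ψ X x = ψ Y x) →
    Kn fun w : List α => hprod ψ w.reverse

theorem HK.pi {ι : Type} [Finite ι] {c : ℕ} {H : ι → Type} [∀ i, Group (H i)]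
    (h : ∀ i, HK α c (H i)) : HK α c (∀ i, H i) := by
  intro ψ hψ
  have h1 := Kn.pi fun i => h i (fun X x => ψ X x i) fun X Y x hXY => congrFun (hψ X Y x hXY) i
  intro b
  refine Eq.mp (congrArg (SH 1) ?_) (h1 b)
  ext w
  change (fun i => hprod (fun X x => ψ X x i) w.reverse) = b ↔ hprod ψ w.reverse = b
  rw [hprod_pi]

theorem HK.div {H : Type} [Group H] [Finite H] {c : ℕ} (hH : HK α c H) (D : Subgroup H)
    (π : D →* G) (hπ : Function.Surjective π) : HK α c G := by
  classical
  intro ψ hψ g
  choose s hs using hπ
  have h1 := hH (fun X x => ((s (ψ X x) : D) : H)) fun X Y x hXY => by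
    change ((s (ψ X x) : D) : H) = ((s (ψ Y x) : D) : H)
    rw [hψ X Y x hXY]
  have h2 : ∀ w : List α, hprod (fun X x => ((s (ψ X x) : D) : H)) w =
      ((hprod (fun X x => s (ψ X x)) w : D) : H) := fun w =>
    (hprod_comp D.subtype (fun X x => s (ψ X x)) w).symm
  have h3 : ∀ w : List α, π (hprod (fun X x => s (ψ X x)) w) = hprod ψ w := by
    intro w
    rw [hprod_comp]
    congr 1
    funext X x
    exact hs _
  have h4 : SH 1 (⋃ x : H, ⋃ _ : ∃ d : D, (d : H) = x ∧ π d = g,
      {w : List α | hprod (fun X x => ((s (ψ X x) : D) : H)) w.reverse = x}) :=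
    SH.iUnion fun x => SH.iUnion_prop fun _ => h1 x
  refine Eq.mp (congrArg (SH 1) ?_) h4
  ext w
  simp only [Set.mem_iUnion]
  constructor
  · rintro ⟨x, ⟨d, rfl, hd⟩, hw⟩
    have hw' : hprod (fun X x => ((s (ψ X x) : D) : H)) w.reverse = (d : H) := hw
    rw [h2] at hw'
    have h5 : hprod (fun X x => s (ψ X x)) w.reverse = d := Subtype.ext hw'
    change hprod ψ w.reverse = g
    rw [← h3, h5, hd]
  · intro hw
    have hw' : hprod ψ w.reverse = g := hw
    exact ⟨_, ⟨_, rfl, (h3 _).trans hw'⟩, h2 _⟩

theorem HK.equiv {H : Type} [Group H] [Finite H] {c : ℕ} (hH : HK α c H) (e : H ≃* G) :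
    HK α c G :=
  HK.div hH ⊤ (e.toMonoidHom.comp (Subgroup.subtype ⊤)) fun g => ⟨⟨e.symm g, trivial⟩, by simp⟩

/-- **nilpotent groups** -/
theorem HK.nil {c : ℕ} (h : ∀ p : ℕ, p.Prime → ∀ (G : Type) [Group G] [Finite G], IsPGroup p G →
    HK α c G) [Finite G] (hG : Group.IsNilpotent G) : HK α c G := by
  have hfin : ∀ p : ℕ, Finite (Sylow p G) := fun p => inferInstance
  obtain ⟨e⟩ := (Group.isNilpotent_of_finite_tfae (G := G)).out 0 4 |>.mp hG
  have h1 : HK α c (∀ p : (Nat.card G).primeFactors, ∀ P : Sylow p G, (P : Subgroup G)) := by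
    refine HK.pi fun p => HK.pi fun P => ?_
    exact h p (Nat.prime_of_mem_primeFactors p.2) _ P.isPGroup'
  exact h1.equiv e

theorem HK.known {G : Type} [Group G] (h : HK α 0 G) (f : α → G) :
    Kn fun w : List α => (w.map f).prod := by
  intro g
  refine Eq.mp (congrArg (SH 1) ?_) (h (fun _ x => f x) (fun _ _ _ _ => rfl) g)
  ext w
  change hprod (fun _ x => f x) w.reverse = g ↔ (w.map f).prod = g
  rw [hprod_letters]

theorem HK.mono {c c' : ℕ} (hc : c ≤ c') {G : Type} [Group G] (h : HK α c' G) : HK α c G := by
  intro ψ hψ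
  refine h ψ fun X Y x hXY => hψ X Y x ?_
  have := congrArg (List.take c) hXY
  rwa [List.take_take, List.take_take, Nat.min_eq_left hc] at this

end nil

/-- the core statement : the level sets of the iterated sums with weights of memory `c` -/
def Core (p : ℕ) (α : Type) (c : ℕ) : Prop :=
  ∀ ks : List (List α → ZMod p), (∀ k ∈ ks, LocC c k) → Kn fun w : List α => chW ks w.reverse

theorem HK.of_core [Fact p.Prime] {c : ℕ} (h : Core p α (c + 1)) {G : Type} [Group G] [Finite G]
    (hG : IsPGroup p G) : HK α c G := fun _ hψ => pgroup_hprod hG hψ h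

/-- **from the core to nilpotent groups** -/
theorem nilp_of_core (h : ∀ p : ℕ, p.Prime → ∀ (α : Type) [Finite α], Core p α 1)
    {α : Type} [Finite α] {G : Type} [Group G] [Finite G] (hG : Group.IsNilpotent G) (f : α → G)
    (S : Set G) : ∃ e : GRE α, e.height ≤ 1 ∧ e.lang = {w : List α | (w.map f).prod ∈ S} := by
  have h1 : HK α 0 G := HK.nil (fun p hp G _ _ hG => by
    have : Fact p.Prime := ⟨hp⟩
    exact HK.of_core (h p hp α) hG) hG
  have h2 : SH 1 (⋃ g : G, ⋃ _ : g ∈ S, {w : List α | (w.map f).prod = g}) :=
    SH.iUnion fun g => SH.iUnion_prop fun _ => h1.known f g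
  refine Eq.mp (congrArg (SH 1) ?_) h2
  ext w
  simp only [Set.mem_iUnion]
  constructor
  · rintro ⟨g, hg, hw⟩
    have hw' : (w.map f).prod = g := hw
    change (w.map f).prod ∈ S
    rw [hw']; exact hg
  · intro hw
    exact ⟨_, hw, rfl⟩

end Vale.Agent.P329.H320
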