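import Vale.Agent.P329.H962.Rows
import Vale.Agent.P329.H320.Alg

/-!
# P329 / from row K to the core of `H320.Final`
-/

set_option linter.all false

namespace Vale.Agent.P329.H320

open Vale.Agent.P329

variable {α : Type} {p : ℕ}

theorem TL_eq_TW (k F : List α → ZMod p) : H962.TL k F = TW k F := by
  funext X
  induction X with
  | nil => rfl
  | cons x X ih => rw [H962.TL, TW, ih]

theorem N_eq_TW (k : List α → ZMod p) : H962.N k = TW k (fun _ => 1) := by
  funext X
  induction X with
  | nil => rfl
  | cons x X ih => rw [H962.N, TW, ih, mul_one]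

theorem chW_concat (ks : List (List α → ZMod p)) (k0 : List α → ZMod p) :
    chW (ks ++ [k0]) = ks.reverse.foldl (fun F k => H962.TL k F) (H962.N k0) := by
  rw [List.foldl_reverse]
  induction ks with
  | nil =>
    rw [List.nil_append, List.foldr_nil, N_eq_TW]
    rfl
  | cons k ks ih =>
    rw [List.cons_append, chW, ih, List.foldr_cons, TL_eq_TW]

theorem core_of_rowK (hK : H962.RowK) :
    ∀ (p : ℕ), p.Prime → ∀ (α : Type) [Finite α] (c : ℕ), Core p α c := by
  intro p hp α _ c ks hks
  have hf : Fact p.Prime := ⟨hp⟩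
  rcases List.eq_nil_or_concat ks with h | ⟨ks', k0, h⟩
  · rw [h]
    exact Kn.const 1
  · rw [List.concat_eq_append] at h
    rw [h] at hks ⊢
    rw [chW_concat]
    refine hK α p k0 ks'.reverse ⟨c, hks k0 (by simp)⟩ ?_
    intro k hk
    exact ⟨c, hks k (by rw [List.mem_reverse] at hk; simp [hk])⟩

end Vale.Agent.P329.H320
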