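import Vale.Agent.P329.H320.RowG2

/-!
# P329 / rows F5 (coverage transfer) and F6 (the base)
-/

set_option linter.all false

namespace Vale.Agent.P329.H320

open Vale.Agent.P329.H962
open H259 (pw pw_zero pw_succ pw_one pw_add pw_succ' pw_mul pw_length)

variable {α B : Type} {p : ℕ}

/-! ### F5 -/

theorem iter_shift (ρs : List (ZMod p)) : ∀ (w h : List α → ZMod p) (X : List α) (L : ℕ),
    L ≤ X.length → (∀ i < L, h (X.drop i) = w (X.drop i)) →
    ∃ ρs' : List (ZMod p), ρs'.length = ρs.length ∧
      ∀ i < L, iter h ρs (X.drop i) = iter w ρs' (X.drop i) := by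
  induction ρs with
  | nil => exact fun w h X L _ hh => ⟨[], rfl, hh⟩
  | cons ρ ρs ih =>
    intro w h X L hL hh
    let d : ZMod p := N h (X.drop L) - N w (X.drop L)
    have h1 : ∀ i, i ≤ L → N h (X.drop (L - i)) = N w (X.drop (L - i)) + d := by
      intro i
      induction i with
      | zero =>
        intro _
        rw [Nat.sub_zero]
        change _ = _ + (N h (X.drop L) - N w (X.drop L))
        ring
      | succ i ih =>
        intro hi
        have h2 := ih (by omega)
        have h3 : L - i = L - (i + 1) + 1 := by omega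
        rw [N_drop h X (L - (i + 1)) (by omega), N_drop w X (L - (i + 1)) (by omega), ← h3, h2,
          hh _ (by omega)]
        ring
    have h2 : ∀ i < L, rc h ρ (X.drop i) = rc w (ρ - d) (X.drop i) := by
      intro i hi
      have h3 := h1 (L - i) (by omega)
      have h4 : L - (L - i) = i := by omega
      rw [h4] at h3
      rw [rc, rc, h3, hh i hi]
      by_cases h5 : N w (X.drop i) = ρ - d
      · rw [if_pos h5, if_pos (by rw [h5]; ring)]
      · rw [if_neg h5, if_neg]
        intro h6
        apply h5
        rw [← h6]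
        ring
    obtain ⟨ρs', h3, h4⟩ := ih (rc w (ρ - d)) (rc h ρ) X L hL h2
    exact ⟨(ρ - d) :: ρs', by rw [List.length_cons, List.length_cons, h3], h4⟩

theorem rowF5 : RowF5 := by
  classical
  intro α B p _ β w h M hM hw hC ρs
  obtain ⟨J0, hJ0⟩ := hw
  have hfin : {l : List (ZMod p) | l.length = ρs.length}.Finite := List.finite_length_eq _ _
  choose J hJ using hC
  let L : ℕ := ∑ l ∈ hfin.toFinset, J l
  have hL : ∀ l : List (ZMod p), l.length = ρs.length → J l ≤ L := fun l hl =>
    Finset.single_le_sum (f := J) (fun _ _ => Nat.zero_le _) (hfin.mem_toFinset.mpr hl)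
  refine ⟨L + J0, fun m hm X hX => ?_⟩
  have h1 : ∀ i < L, h (X.drop i) = w (X.drop i) := by
    intro i hi
    refine hJ0 _ (sh_mem hM i m hm) _ ⟨?_, fun j hj => ?_⟩
    · have := hX.1
      rw [List.length_drop]
      omega
    · rw [List.drop_drop, hX.2 _ (by omega)]
  obtain ⟨ρs', h2, h3⟩ := iter_shift ρs w h X L (by have := hX.1; omega) h1
  obtain ⟨i, hi, h4⟩ := hJ ρs' m hm X ⟨by have := hX.1; have := hL ρs' h2; omega,
    fun j hj => hX.2 j (by have := hL ρs' h2; omega)⟩
  have h5 := hL ρs' h2
  refine ⟨i, by omega, ?_⟩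
  rw [h3 i (by omega)]
  exact h4

/-! ### F6 -/

theorem w0_ne {X : List α} (h : X ≠ []) : (w0 : List α → ZMod p) X = 1 := if_neg h

theorem stg_w0 [Fact p.Prime] : Stg (w0 : List α → ZMod p) where
  nil := if_pos rfl
  fs := by
    classical
    refine Set.Finite.subset (Set.toFinite
      {(fun Y : List α => (w0 : List α → ZMod p) Y), (fun _ => (1 : ZMod p))}) ?_
    rintro _ ⟨X, rfl⟩
    by_cases h : X = []
    · left
      subst h
      funext Y
      change w0 (Y ++ []) = w0 Y
      rw [List.append_nil]
    · right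
      change (fun Y : List α => (w0 : List α → ZMod p) (Y ++ X)) = fun _ => 1
      funext Y
      exact w0_ne (by
        intro h1
        exact h (List.append_eq_nil_iff.mp h1).2)
  ap := by
    intro v
    refine ⟨1, fun n hn X Y hU => ?_⟩
    by_cases hv : v = []
    · subst hv
      have h1 : ∀ k, pw ([] : List α) k = [] := by
        intro k
        induction k with
        | zero => exact pw_zero _
        | succ k ih => rw [pw_succ, ih, List.append_nil]
      rw [h1, h1]
    · exfalso
      obtain ⟨k, rfl⟩ : ∃ k, n = k + 1 := ⟨n - 1, by omega⟩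
      have h1 : pw v (k + 1) ≠ [] := by
        rw [pw_succ]
        intro h2
        exact hv (List.append_eq_nil_iff.mp h2).1
      have h2 := hU (pw v (k + 1)) List.suffix_rfl h1
      rw [w0_ne (by
        intro h3
        exact h1 (List.append_eq_nil_iff.mp h3).1)] at h2
      exact one_ne_zero h2
  rt := by
    intro c c' r _ _ hr
    rw [w0_ne (fun h => hr (List.append_eq_nil_iff.mp h).1),
      w0_ne (fun h => hr (List.append_eq_nil_iff.mp h).1)]
  ch := by
    intro c v j hc hj _ hi
    exfalso
    have h1 := hi 1 le_rfl (by omega)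
    have h2 : c ≠ [] := by
      rintro rfl
      exact hc (if_pos rfl)
    rw [w0_ne (fun h => h2 (List.append_eq_nil_iff.mp h).2)] at h1
    exact one_ne_zero h1

/-- steps `0` or `1` with bounded gaps visit every state with a step `1` -/
theorem gap_visit {w : List α → ZMod p} (hw : ∀ X, w X = 0 ∨ w X = 1) {J : ℕ}
    (hJ : ∀ X : List α, J ≤ X.length → ∃ i < J, w (X.drop i) ≠ 0) (ρ : ZMod p) (d : ℕ) :
    ∀ X : List α, (d + 1) * J ≤ X.length → N w X = ρ + d →
      ∃ i < (d + 1) * J, w (X.drop i) ≠ 0 ∧ N w (X.drop i) = ρ := by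
  classical
  induction d with
  | zero =>
    intro X hX hN
    have h0 := hJ X (by omega)
    obtain ⟨h1, h2⟩ := Nat.find_spec h0
    refine ⟨Nat.find h0, by omega, h2, ?_⟩
    have h3 : ∀ i, i ≤ Nat.find h0 → N w (X.drop i) = N w X := by
      intro i
      induction i with
      | zero => intro _; rw [List.drop_zero]
      | succ i ih =>
        intro hi
        have h4 := N_drop w X i (by omega)
        have h5 : w (X.drop i) = 0 := by
          by_contra h6
          exact Nat.find_min h0 (m := i) (by omega) ⟨by omega, h6⟩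
        rw [h5, add_zero] at h4
        rw [← h4, ih (by omega)]
    rw [h3 _ le_rfl, hN, Nat.cast_zero, add_zero]
  | succ d ih =>
    intro X hX hN
    have hX' : (d + 1) * J + J ≤ X.length := by
      have : (d + 1 + 1) * J = (d + 1) * J + J := by ring
      omega
    have h0 := hJ X (by omega)
    obtain ⟨h1, h2⟩ := Nat.find_spec h0
    have h3 : ∀ i, i ≤ Nat.find h0 → N w (X.drop i) = N w X := by
      intro i
      induction i with
      | zero => intro _; rw [List.drop_zero]
      | succ i ih =>
        intro hi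
        have h4 := N_drop w X i (by omega)
        have h5 : w (X.drop i) = 0 := by
          by_contra h6
          exact Nat.find_min h0 (m := i) (by omega) ⟨by omega, h6⟩
        rw [h5, add_zero] at h4
        rw [← h4, ih (by omega)]
    have h4 := N_drop w X (Nat.find h0) (by omega)
    have h5 : w (X.drop (Nat.find h0)) = 1 := (hw _).resolve_left h2
    rw [h3 _ le_rfl, h5, hN] at h4
    have h6 : N w (X.drop (Nat.find h0 + 1)) = ρ + d := by
      have h7 := eq_sub_of_add_eq h4.symm
      rw [h7]
      push_cast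
      ring
    obtain ⟨i, hi, h7, h8⟩ := ih (X.drop (Nat.find h0 + 1)) (by
      rw [List.length_drop]
      omega) h6
    rw [List.drop_drop] at h7 h8
    refine ⟨Nat.find h0 + 1 + i, ?_, h7, h8⟩
    have : (d + 1 + 1) * J = (d + 1) * J + J := by ring
    omega

theorem gap_iter [Fact p.Prime] (ρs : List (ZMod p)) : ∀ w : List α → ZMod p,
    (∀ X, w X = 0 ∨ w X = 1) →
    (∃ J, ∀ X : List α, J ≤ X.length → ∃ i < J, w (X.drop i) ≠ 0) →
    ∃ J, ∀ X : List α, J ≤ X.length → ∃ i < J, iter w ρs (X.drop i) ≠ 0 := by
  induction ρs with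
  | nil => exact fun w _ h => h
  | cons ρ ρs ih =>
    intro w hw ⟨J, hJ⟩
    refine ih (rc w ρ) ?_ ⟨p * J, fun X hX => ?_⟩
    · intro X
      rw [rc]
      by_cases h : N w X = ρ
      · rw [if_pos h]; exact hw X
      · rw [if_neg h]; exact Or.inl rfl
    · have hp : 0 < p := (Fact.out : p.Prime).pos
      have hne : NeZero p := ⟨hp.ne'⟩
      have h1 : (N w X - ρ).val < p := ZMod.val_lt _
      have h2 : ((N w X - ρ).val + 1) * J ≤ p * J := Nat.mul_le_mul_right J h1
      obtain ⟨i, hi, h3, h4⟩ := gap_visit hw hJ ρ (N w X - ρ).val X (by omega) (by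
        rw [ZMod.natCast_zmod_val]
        ring)
      refine ⟨i, by omega, ?_⟩
      rw [rc, if_pos h4]
      exact h3

theorem rowF6 : RowF6 := by
  intro α p _
  refine ⟨stg_w0, fun ρs => gap_iter ρs _ ?_ ⟨1, fun X hX => ⟨0, Nat.one_pos, ?_⟩⟩⟩
  · intro X
    by_cases h : X = []
    · exact Or.inl (if_pos h)
    · exact Or.inr (if_neg h)
  · rw [List.drop_zero, w0_ne (by
      rintro rfl
      exact absurd hX (by simp))]
    exact one_ne_zero

end Vale.Agent.P329.H320
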