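import Vale.Agent.P329.H962.Rows

/-!
# P329 / row G2: change of zone
-/

set_option linter.all false

namespace Vale.Agent.P329.H320

open Vale.Agent.P329.H962
open Filter

variable {α B : Type} {p : ℕ}

theorem N_drop (h : List α → ZMod p) (X : List α) (i : ℕ) (hi : i < X.length) :
    N h (X.drop i) = N h (X.drop (i + 1)) + h (X.drop i) := by
  rw [List.drop_eq_getElem_cons hi]
  rfl

theorem take_eq_of_near {β : List α → B} {lB : B → Option α}
    (hl : ∀ X, X.head? = lB (β X)) {z : ℕ → B} {L : ℕ} {X X' : List α}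
    (hX : Near β z L X) (hX' : Near β z L X') (k n : ℕ) (hk : k + n ≤ L) :
    (X.drop k).take n = (X'.drop k).take n := by
  apply List.ext_getElem?
  intro i
  rw [List.getElem?_take, List.getElem?_take]
  by_cases hi : i < n
  · rw [if_pos hi, if_pos hi, List.getElem?_drop, List.getElem?_drop, ← List.head?_drop,
      ← List.head?_drop, hl, hl, hX.2 _ (by omega), hX'.2 _ (by omega)]
  · rw [if_neg hi, if_neg hi]

theorem sh_mem {M : Set (ℕ → B)} (hM : ∀ m ∈ M, sh m ∈ M) (K : ℕ) :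
    ∀ m ∈ M, (fun i => m (K + i)) ∈ M := by
  induction K with
  | zero =>
    intro m hm
    have h1 : (fun i => m (0 + i)) = m := by
      funext i
      rw [Nat.zero_add]
    rw [h1]
    exact hm
  | succ K ih =>
    intro m hm
    have h1 : (fun i => m (K + 1 + i)) = sh (fun i => m (K + i)) := by
      funext i
      change m (K + 1 + i) = m (K + (i + 1))
      congr 1
      omega
    rw [h1]
    exact hM _ (ih m hm)

/-- along the text of a zone there are cuts arbitrarily far -/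
theorem zone_cut {w : List α → ZMod p} {β : List α → B} {wB : B → ZMod p}
    (hwB : ∀ X, w X = wB (β X)) {F : Filter (List α)} [hF : F.NeBot] {M : Set (ℕ → B)}
    (hM : Mn M) (hC : Cov w β M) {z : ℕ → B} (hz : ∀ J, ∀ᶠ X in F, Near β z J X)
    (hzM : ∀ m ∈ M, ∀ J, ∃ k, ∀ i < J, z (k + i) = m i) (K : ℕ) :
    ∃ k, K < k ∧ wB (z k) ≠ 0 := by
  obtain ⟨J, hJ⟩ := hC []
  obtain ⟨m, hm⟩ := hM.ne
  obtain ⟨k, hk⟩ := hzM m hm (K + 1 + J)
  obtain ⟨X, hX⟩ := (hz (k + (K + 1) + J)).exists
  have h1 : Near β (fun i => m (K + 1 + i)) J (X.drop (k + (K + 1))) := by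
    refine ⟨?_, fun i hi => ?_⟩
    · have := hX.1
      rw [List.length_drop]
      omega
    · rw [List.drop_drop, hX.2 _ (by omega)]
      change z (k + (K + 1) + i) = m (K + 1 + i)
      rw [← hk (K + 1 + i) (by omega)]
      congr 1
      omega
  obtain ⟨i, hi, h2⟩ := hJ _ (sh_mem hM.inv (K + 1) m hm) _ h1
  refine ⟨k + (K + 1) + i, by omega, ?_⟩
  have h3 : w ((X.drop (k + (K + 1))).drop i) ≠ 0 := h2
  rw [List.drop_drop, hwB, hX.2 _ (by omega)] at h3
  exact h3

/-- a rooted function has a limit at every point of the text -/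
theorem zone_lim {A : Type} {w : List α → ZMod p} {β : List α → B} {wB : B → ZMod p}
    {lB : B → Option α} (hwB : ∀ X, w X = wB (β X)) (hl : ∀ X, X.head? = lB (β X))
    {F : Filter (List α)} [hF : F.NeBot] {M : Set (ℕ → B)} (hM : Mn M) (hC : Cov w β M)
    {z : ℕ → B} (hz : ∀ J, ∀ᶠ X in F, Near β z J X)
    (hzM : ∀ m ∈ M, ∀ J, ∃ k, ∀ i < J, z (k + i) = m i) {h : List α → A} (hR : Rt w h)
    (k : ℕ) : ∃ a, ∀ᶠ X in F, h (X.drop k) = a := by
  obtain ⟨k', hk', hc⟩ := zone_cut hwB hM hC hz hzM k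
  obtain ⟨X', hX'⟩ := (hz (k' + 1)).exists
  refine ⟨h (X'.drop k), (hz (k' + 1)).mono fun X hX => ?_⟩
  have h1 : ∀ Y : List α, Near β z (k' + 1) Y →
      Y.drop k = (Y.drop k).take (k' - k) ++ Y.drop k' := by
    intro Y hY
    have h2 := (List.take_append_drop (k' - k) (Y.drop k)).symm
    rw [List.drop_drop] at h2
    have h3 : k + (k' - k) = k' := by omega
    rw [h3] at h2
    exact h2
  have h2 : ∀ Y : List α, Near β z (k' + 1) Y → w (Y.drop k') ≠ 0 := by
    intro Y hY
    rw [hwB, hY.2 k' (by omega)]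
    exact hc
  have h3 : (X.drop k).take (k' - k) ≠ [] := by
    intro h4
    have h5 := congrArg List.length h4
    have h6 := hX.1
    rw [List.length_take, List.length_drop, List.length_nil] at h5
    omega
  have h4 := take_eq_of_near hl hX hX' k (k' - k) (by omega)
  rw [h1 X hX, h1 X' hX', ← h4]
  exact hR _ _ _ (h2 X hX) (h2 X' hX') h3

theorem rowG2 (f1 : RowF1) : RowG2 := by
  intro α B _ p _ w h β wB lB F M ρ s hw hS hU hZ hne hC
  obtain ⟨z, hz, hzM⟩ := hZ.z
  have hFne : F.NeBot := hZ.nb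
  have hval : ∀ k, ∃ a, ∀ᶠ X in F, h (X.drop k) = a := fun k =>
    zone_lim hS.w_eq hS.l_eq hZ.mn hZ.cov hz hzM hU.rt k
  choose hv hhv using hval
  let nv : ℕ → ZMod p := fun i => Nat.rec s (fun i a => a - hv i) i
  have hle : strd F h s ≤ F := inf_le_left
  have hnv : ∀ i, ∀ᶠ X in strd F h s, N h (X.drop i) = nv i := by
    intro i
    induction i with
    | zero =>
      have h1 : ∀ᶠ X in 𝓟 {X : List α | N h X = s}, N h X = s := mem_principal_self _
      exact (h1.filter_mono inf_le_right).mono fun X hX => hX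
    | succ i ih =>
      filter_upwards [ih, (hhv i).filter_mono hle, (hz (i + 1)).filter_mono hle]
        with X h1 h2 h3
      have h4 := N_drop h X i (by have := h3.1; omega)
      change N h (X.drop (i + 1)) = nv i - hv i
      rw [← h1, ← h2, h4, add_sub_cancel_right]
  let z' : ℕ → B × ZMod p × ZMod p := fun i => (z i, nv i, hv i)
  have hz' : ∀ J, ∀ᶠ X in strd F h s, Near (ext β h) z' J X := by
    intro J
    have h1 : ∀ᶠ X in strd F h s, ∀ i ∈ Finset.range J,
        N h (X.drop i) = nv i ∧ h (X.drop i) = hv i :=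
      (Filter.eventually_all_finset _).mpr fun i _ => (hnv i).and ((hhv i).filter_mono hle)
    filter_upwards [h1, (hz J).filter_mono hle] with X h2 h3
    refine ⟨h3.1, fun i hi => ?_⟩
    obtain ⟨h4, h5⟩ := h2 i (Finset.mem_range.mpr hi)
    change (β (X.drop i), N h (X.drop i), h (X.drop i)) = (z i, nv i, hv i)
    rw [h3.2 i hi, h4, h5]
  obtain ⟨M', h1, h2, h3⟩ := f1 B (B × ZMod p × ZMod p) Prod.fst z' M hZ.mn hzM
  refine ⟨M', ⟨hne, h1, ⟨z', hz', h2⟩, ?_⟩, h3⟩
  intro ρs
  obtain ⟨J, hJ⟩ := hC ρs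
  refine ⟨J, fun m hm X hX => hJ _ (h3 m hm) X ⟨hX.1, fun i hi => ?_⟩⟩
  have h4 := hX.2 i hi
  exact congrArg Prod.fst h4

end Vale.Agent.P329.H320
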