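import Vale.Agent.P329.ClassDefs
import Vale.Agent.P329.Bdl.B1
import Vale.Agent.P329.Bdl.B2
import Vale.Agent.P329.S4.Class
import Vale.Agent.P329.S4.Main
import Vale.Agent.P329.H157.Alg
import Vale.Agent.P329.H157.CtxDef
import Vale.Agent.P329.H157.ReesDef
import Vale.Agent.P329.H157.Ctx
import Vale.Agent.P329.H157.Rees
import Vale.Agent.P329.H157.Wreath
import Vale.Agent.P329.H434.CtxN
import Vale.Agent.P329.H434.Clock

/-!
# P329 / the end theorem, from the core

The only input is `Core p α c` (products of upper unitriangular memory weights over `ZMod p`)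
for all primes `p`, finite alphabets `α` and memories `c`.
-/

set_option linter.all false

namespace Vale.Agent.P329.H320

open Vale.Agent.P329

theorem fin_prod {α : Type} [Finite α] {ι : Type} [Finite ι] {H : ι → Type}
    [∀ i, Group (H i)]
    (hH : ∀ i, ∀ f : α → H i, Kn fun w : List α => (w.map f).prod)
    (F : α → ∀ i, H i) : Kn fun w : List α => (w.map F).prod := by
  have h1 : ∀ i, Kn fun w : List α => (w.map fun a => F a i).prod := fun i => hH i _
  have h2 := Kn.pi h1
  have h3 : ∀ w : List α, (fun i => (w.map fun a => F a i).prod) = (w.map F).prod := by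
    intro w
    funext i
    induction w with
    | nil => rfl
    | cons a w ih =>
      rw [List.map_cons, List.prod_cons, ih, List.map_cons, List.prod_cons, Pi.mul_apply]
  intro x
  refine Eq.mp (congrArg (SH 1) ?_) (h2 x)
  ext w
  exact ⟨fun h => (h3 w).symm.trans h, fun h => (h3 w).trans h⟩

theorem fin_div {α : Type} [Finite α] {H : Type} [Group H] [Finite H]
    (hH : ∀ f : α → H, Kn fun w : List α => (w.map f).prod)
    (D : Subgroup H) {G : Type} [Group G] (π : D →* G) (hπ : Function.Surjective π)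
    (f : α → G) (S : Set G) : SH 1 {w : List α | (w.map f).prod ∈ S} := by
  classical
  choose F hF using fun a => hπ (f a)
  have h2 := hH fun a => (F a : H)
  have h3 : ∀ w : List α, (w.map fun a => (F a : H)).prod = (((w.map F).prod : D) : H) := by
    intro w
    induction w with
    | nil => rfl
    | cons a w ih =>
      rw [List.map_cons, List.prod_cons, ih, List.map_cons, List.prod_cons, Subgroup.coe_mul]
  have h4 : ∀ w : List α, π (w.map F).prod = (w.map f).prod := by
    intro w
    rw [map_list_prod, List.map_map]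
    congr 1
    exact List.map_congr_left fun a _ => hF a
  have h5 : {w : List α | (w.map f).prod ∈ S} =
      ⋃ x : H, ⋃ _ : ∃ d : D, (d : H) = x ∧ π d ∈ S,
        {w : List α | (w.map fun a => (F a : H)).prod = x} := by
    ext w
    simp only [Set.mem_iUnion]
    constructor
    · intro hw
      refine ⟨(((w.map F).prod : D) : H), ⟨(w.map F).prod, rfl, ?_⟩, h3 w⟩
      rw [h4]; exact hw
    · rintro ⟨x, ⟨d, rfl, hd⟩, hw⟩
      have hw' := hw
      rw [Set.mem_ofPred_eq, h3 w] at hw'
      have h6 : (w.map F).prod = d := Subtype.ext hw'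
      rw [← h6, h4] at hd
      exact hd
  rw [h5]
  exact SH.iUnion fun x => SH.iUnion_prop fun _ => h2 x

theorem fin_pw {α : Type} (v : List α) (n : ℕ) :
    H259.pw v n = (List.replicate n v).flatten := by
  induction n with
  | zero => rfl
  | succ n ih => rw [H259.pw_succ, ih, List.replicate_succ, List.flatten_cons]

theorem fin_code {α B : Type} [Finite α] [Finite B] (D : B → Set (List α))
    (hsf : ∀ b, ∃ e : GRE α, e.height = 0 ∧ e.lang = D b) (hne : ∀ b, [] ∉ D b)
    (hpre : ∀ b b' u u' t t', u ∈ D b → u' ∈ D b' → u ++ t = u' ++ t' → b = b' ∧ u = u')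
    (hodd : ∀ (v : List α) (j : ℕ) (L : List (B × List α)), 2 ≤ j → (∀ x ∈ L, x.2 ∈ D x.1) →
      (L.map Prod.snd).flatten = (List.replicate j v).flatten →
      (∀ i, 1 ≤ i → i < j → ¬ ∃ L' : List (B × List α), (∀ x ∈ L', x.2 ∈ D x.1) ∧
        (L'.map Prod.snd).flatten = (List.replicate i v).flatten) → Odd L.length)
    {G : Type} [Group G] [Finite G] (hG : IsPGroup 2 G) (l c : ℕ)
    (ψ : ZMod (2 ^ l) → List B → B → G) (S : Set G) :
    SH 1 {w : List α | ∃ L : List (B × List α), (∀ x ∈ L, x.2 ∈ D x.1) ∧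
      (L.map Prod.snd).flatten = w ∧ ctxProd l c ψ (L.map Prod.fst) ∈ S} := by
  refine H157.ctx_code hG (D := D) ?_ l c ψ S
  refine { ne := hne, pre := hpre, sf := ?_, odd := ?_ }
  · intro b
    obtain ⟨e, he, hl⟩ := hsf b
    exact ⟨e, he.le, hl⟩
  · intro v j X hj hX hmin
    obtain ⟨L, h1, h2, h3⟩ := H157.mem_sub_iff.mp hX
    have h4 := hodd v j L hj h1 (by rw [h2, fin_pw]) (by
      rintro i hi1 hi2 ⟨L', h5, h6⟩
      exact hmin i hi1 hi2 ⟨_, trivial, H157.mem_sub_iff.mpr ⟨L', h5, by rw [h6, fin_pw], rfl⟩⟩)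
    rw [← h3, List.length_reverse, List.length_map]
    exact Nat.odd_iff.mp h4

/-- `ctxProd` is the case `n = 2 ^ l` of `ctxProdN`. -/
theorem ctxProd_eq {α G : Type} [Monoid G] (l c : ℕ) (ψ : ZMod (2 ^ l) → List α → α → G)
    (w : List α) : ctxProdN (2 ^ l) c ψ w = ctxProd l c ψ w := rfl

theorem final
    (hcore : ∀ (p : ℕ), p.Prime → ∀ (α : Type) [Finite α] (c : ℕ), Core p α c) :
    (∀ (α : Type) [Finite α] (G : Type) [Group G] [Finite G], Group.IsNilpotent G →
      ∀ (f : α → G) (S : Set G),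
        ∃ e : GRE α, e.height ≤ 1 ∧ e.lang = {w : List α | (w.map f).prod ∈ S}) ∧
    (∀ (α : Type) [Finite α] (ι : Type) [Finite ι] (H : ι → Type)
      [∀ i, Group (H i)] [∀ i, Finite (H i)],
      (∀ i, Group.IsNilpotent (H i) ∨ ElementaryTwoByS3 (H i) ∨ AbelianByElementary (H i)) →
      ∀ (D : Subgroup (∀ i, H i)) (G : Type) [Group G] (π : D →* G),
        Function.Surjective π → ∀ f : α → G,
          (∀ S : Set G,
            ∃ e : GRE α, e.height ≤ 1 ∧ e.lang = {w : List α | (w.map f).prod ∈ S}) ∧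
          (∀ e' : GRE (G × α), e'.height = 0 →
            ∃ e : GRE α, e.height ≤ 1 ∧ e.lang =
              {w : List α | (w.zipIdx.map fun x => (((w.take x.2).map f).prod, x.1)) ∈
                e'.lang})) ∧
    (∀ (α : Type) [Finite α] (G : Type) [Group G] [Finite G] (n : ℕ),
      (n = 1 ∧ Group.IsNilpotent G ∨ ∃ p l, p.Prime ∧ IsPGroup p G ∧ n = p ^ l) →
      ∀ (c : ℕ) (ψ : ZMod n → List α → α → G),
        (∀ S : Set G, ∃ e : GRE α, e.height ≤ 1 ∧ e.lang = {w : List α | ctxProdN n c ψ w ∈ S}) ∧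
        (∀ e' : GRE (G × α), e'.height = 0 →
          ∃ e : GRE α, e.height ≤ 1 ∧ e.lang =
            {w : List α | (w.zipIdx.map fun x => (ctxProdN n c ψ (w.take x.2), x.1)) ∈
              e'.lang})) ∧
    (∀ (α : Type) [Finite α] (G I Λ : Type) [Group G] [Finite G] [Finite I] [Finite Λ],
      Group.IsNilpotent G → ∀ (P : Λ → I → Option G) (f : α → Option (I × G × Λ))
        (S : Set (Option (I × G × Λ))),
          ∃ e : GRE α, e.height ≤ 1 ∧ e.lang =
            {w : List α | ∃ a u, w = a :: u ∧ (u.map f).foldl (reesMul P) (f a) ∈ S}) ∧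
    (∀ (α B : Type) [Finite α] [Finite B] (D : B → Set (List α)),
      (∀ b, ∃ e : GRE α, e.height = 0 ∧ e.lang = D b) → (∀ b, [] ∉ D b) →
      (∀ b b' u u' t t', u ∈ D b → u' ∈ D b' → u ++ t = u' ++ t' → b = b' ∧ u = u') →
      (∀ (v : List α) (j : ℕ) (L : List (B × List α)), 2 ≤ j → (∀ x ∈ L, x.2 ∈ D x.1) →
        (L.map Prod.snd).flatten = (List.replicate j v).flatten →
        (∀ i, 1 ≤ i → i < j → ¬ ∃ L' : List (B × List α), (∀ x ∈ L', x.2 ∈ D x.1) ∧
          (L'.map Prod.snd).flatten = (List.replicate i v).flatten) → Odd L.length) →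
      ∀ (G : Type) [Group G] [Finite G], IsPGroup 2 G →
        ∀ (l c : ℕ) (ψ : ZMod (2 ^ l) → List B → B → G) (S : Set G),
          ∃ e : GRE α, e.height ≤ 1 ∧ e.lang =
            {w : List α | ∃ L : List (B × List α), (∀ x ∈ L, x.2 ∈ D x.1) ∧
              (L.map Prod.snd).flatten = w ∧ ctxProdN (2 ^ l) c ψ (L.map Prod.fst) ∈ S}) := by
  have hnil : ∀ (G : Type) [Group G] [Finite G], Group.IsNilpotent G → H434.CtxK 1 G :=
    fun G _ _ hG => H434.CtxK.nil_of_core hcore hG
  refine ⟨?_, ?_, ?_, ?_, ?_⟩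
  · intro α _ G _ _ hG f S
    exact (hnil G hG).word f S
  · intro α _ ι _ H _ _ hH D G _ π hπ f
    have h1 : ∀ S : Set G, SH 1 {w : List α | (w.map f).prod ∈ S} := by
      intro S
      refine fin_div (fun F => fin_prod (fun i => ?_) F) D π hπ f S
      intro f
      rcases hH i with h2 | h2 | ⟨p, hp, A, h2, h3, h4⟩
      · exact fun b => (hnil (H i) h2).word f {b}
      · exact S4.e2s3_known h2 _
      · exact group_known hp A h2 h3 h4 _
    have hfin : Finite G := Finite.of_surjective π hπ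
    exact ⟨h1, fun e' he' => H157.group_ann f h1 e' he'⟩
  · intro α _ G _ _ n hn c ψ
    have h1 : NeZero n ∧ H434.LocK n ∧ H434.CtxK n G := by
      rcases hn with ⟨rfl, hG⟩ | ⟨p, l, hp, hG, rfl⟩
      · exact ⟨⟨one_ne_zero⟩, H434.LocK.one, hnil G hG⟩
      · have hf : Fact p.Prime := ⟨hp⟩
        have h2 : ∀ (H : Type) [Group H] [Finite H], IsPGroup p H → H434.CtxK 1 H :=
          fun H _ _ hH => H434.CtxK.of_core (hcore p hp) H hH
        refine ⟨⟨pow_ne_zero l hp.ne_zero⟩, ?_, H434.CtxK.clock_p h2 hG l⟩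
        refine H434.LocK.of_ctx (p := p) (H434.CtxK.clock_p h2 ?_ l)
        refine IsPGroup.of_card (n := 1) ?_
        rw [Nat.card_congr (Multiplicative.toAdd : Multiplicative (ZMod p) ≃ ZMod p),
          Nat.card_zmod, pow_one]
    obtain ⟨h2, h3, h4⟩ := h1
    exact ⟨fun S => h4.letters c ψ S, fun e' he' => H434.CtxK.ann h3 h4 c ψ e' he'⟩
  · intro α _ G I Λ _ _ _ _ hG P f S
    exact (hnil G hG).rees P f S
  · intro α B _ _ D hsf hne hpre hodd G _ _ hG l c ψ S
    exact fin_code D hsf hne hpre hodd hG l c ψ S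

end Vale.Agent.P329.H320
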