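import Vale.Agent.P329.H320.RowG2

/-!
# P329 / rows G3 (skew product structure) and G4 (refined enrichment)
-/

set_option linter.all false

namespace Vale.Agent.P329.H320

open Vale.Agent.P329.H962
open Filter

/-- every window of a point of the minimal set of a zone occurs in a word -/
theorem zone_near {α B : Type} {p : ℕ} {w : List α → ZMod p} {β : List α → B}
    {F : Filter (List α)} {M : Set (ℕ → B)} (hZ : Zn w β F M) {m : ℕ → B} (hm : m ∈ M)
    (J : ℕ) : ∃ X, Near β m J X := by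
  have hFne : F.NeBot := hZ.nb
  obtain ⟨z, hz, hzM⟩ := hZ.z
  obtain ⟨k, hk⟩ := hzM m hm J
  obtain ⟨X, hX⟩ := (hz (k + J)).exists
  refine ⟨X.drop k, ?_, fun i hi => ?_⟩
  · have := hX.1
    rw [List.length_drop]
    omega
  · rw [List.drop_drop, hX.2 _ (by omega), hk i hi]

theorem rowG3 : RowG3 := by
  intro α B p _ w' h β F M M' τ hZ hpr hR
  obtain ⟨J, hJ, hR⟩ := hR
  refine ⟨hpr, fun m hm => ?_, fun m hm => ?_⟩
  · obtain ⟨X, hX⟩ := zone_near hZ hm 2
    have h0 := hX.2 0 (by omega)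
    have h1 := hX.2 1 (by omega)
    have h2 := N_drop h X 0 (by have := hX.1; omega)
    rw [List.drop_zero] at h0 h2
    rw [← h0, ← h1]
    exact h2
  · obtain ⟨X, hX⟩ := zone_near hZ hm (J + 1)
    have h0 := hX.2 0 (by omega)
    rw [List.drop_zero] at h0
    have h1 : h X = τ (pr1 m) := by
      refine hR _ (hpr m hm) X ⟨by have := hX.1; omega, fun i hi => ?_⟩
      have h2 := hX.2 i (by omega)
      exact congrArg Prod.fst h2
    rw [← h0]
    exact h1

theorem rowG4 (hB2 : RowB2) (hB3 : RowB3) (hC : RowC) : RowG4 := by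
  intro α B _ p _ w h β wB lB ρ hw hS hU
  have h1 : Lc (rc h ρ) β := hB2 α B p w h hw hU ρ β hS.lc
  have h2 : Lc (rc h ρ) (N h) := hB3 α p w h hw hU ρ
  have h3 : Lc w h := (hC α p w).2.2.2.2.2.2.2.2.1 h hU
  have h4 : Lc (rc h ρ) h := hB2 α (ZMod p) p w h hw hU ρ h h3
  have h5 := (hC α p (rc h ρ)).2.1 _ _ (N h) h h2 h4
  have h6 := (hC α p (rc h ρ)).2.1 _ _ β _ h1 h5
  exact ⟨fun X => rfl, fun X => hS.l_eq X, h6⟩

end Vale.Agent.P329.H320
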